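import Vale.Agent.P232.Final

open MeasureTheory Set
open Vale.Agent.P232

/-- The isoperimetric profile of the cubic flat three-torus is the conjectured one, and every
minimizer is, up to a null set, a ball, a tube, a slab or the complement of one of these. -/
theorem Vale.Agent.Results.P232.CubicTorus.result (V : ℝ) (h0 : 0 < V) (h1 : V < 1) :
    profile V = ENNReal.ofReal (conjProfile V) ∧
      ∀ E : Set Torus, NullMeasurableSet E volume → volume E = ENNReal.ofReal V →
        perimeter E = profile V →
          ∃ S : Set Torus, (IsBall S ∨ IsTube S ∨ IsSlab S) ∧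
            (E =ᵐ[volume] S ∨ E =ᵐ[volume] (Sᶜ : Set Torus)) :=
  Vale.Agent.P232.final V h0 h1
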